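import Mathlib
import Vale.Agent.P309.Learner
import Vale.Agent.P309.Final
import Vale.Agent.P309.U5

open MeasureTheory ProbabilityTheory Metric P309
open scoped ENNReal RealInnerProductSpace

namespace Vale.Agent.Results.P309.TwoSided

/-- Memory-sample tradeoff for noiseless Gaussian linear regression, two-sided form.
(1) Q1, yes: for every `A > 0` and all large `d` and small `ε`, learners with `M ≤ A d²` bits
succeeding at accuracy `ε` need `T ≥ c' d log (1/ε)` samples.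
(2) This is sharp as soon as `M ≥ d log₂ (320 d² / ε)`: then `T ≤ 20 d log (1/ε)` samples suffice.
(3) With fewer bits the horizon is exponentially large: for every `M`, success forces
`T + 1 ≥ (2/3) 2^(-(M+d)) ε^(-(d-1))`. -/
theorem result :
    (∀ A : ℝ, 0 < A →
      ∃ c' : ℝ, 0 < c' ∧ ∃ ε₀ : ℝ, 0 < ε₀ ∧ ∃ d₀ : ℕ, ∀ d : ℕ, d₀ ≤ d →
        ∀ ε : ℝ, 0 < ε → ε ≤ ε₀ → ∀ M : ℝ, M ≤ A * (d : ℝ) ^ 2 →
        ∀ T n : ℕ, (n : ℝ) ≤ 2 ^ M →
        ∀ (Ω : Type) [MeasurableSpace Ω] (P : Measure Ω) [IsProbabilityMeasure P]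
          (B : Learner d Ω n), B.Succeeds P T ε →
        c' * d * Real.log (1 / ε) ≤ T) ∧
    (∀ d : ℕ, 2 ≤ d → ∀ ε : ℝ, 0 < ε → ε ≤ 1 / 2 →
      ∀ M : ℝ, d * Real.logb 2 (320 * (d : ℝ) ^ 2 / ε) ≤ M →
      ∃ T n : ℕ, (T : ℝ) ≤ 20 * d * Real.log (1 / ε) ∧ (n : ℝ) ≤ 2 ^ M ∧
        ∃ B : Learner d Unit n, B.Succeeds (Measure.dirac ()) T ε) ∧
    (∀ d : ℕ, 1 ≤ d → ∀ ε : ℝ, 0 < ε → ε ≤ 1 →
      ∀ (M : ℝ) (T n : ℕ), (n : ℝ) ≤ 2 ^ M →
      ∀ (Ω : Type) [MeasurableSpace Ω] (P : Measure Ω) [IsProbabilityMeasure P]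
        (B : Learner d Ω n), B.Succeeds P T ε →
      2 / 3 * (2 : ℝ) ^ (-(M + d)) * (1 / ε) ^ (d - 1) ≤ T + 1) := by
  refine ⟨?_, ?_, ?_⟩
  · intro A hA
    obtain ⟨d₁, hd₁⟩ := exists_d1 A hA
    set C : ℝ := 12 * A + 8 with hC
    have hC8 : 8 ≤ C := by linarith
    set L₀ : ℕ := ⌈8 * C⌉₊ with hL₀
    have hL₀' : 8 * C ≤ L₀ := Nat.le_ceil _
    refine ⟨1 / (192 * C), by positivity, 1 / 2 ^ L₀, by positivity, max 64 d₁, ?_⟩
    intro d hd ε hε0 hε M hM T n hn Ω _ P _ B hB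
    have hd64 : 64 ≤ d := le_trans (le_max_left _ _) hd
    have hdd₁ : d₁ ≤ d := le_trans (le_max_right _ _) hd
    have hd0 : 0 < d := by omega
    have hn' : (n : ℝ) ≤ (2:ℝ) ^ (A * (d : ℝ) ^ 2) :=
      hn.trans (Real.rpow_le_rpow_of_exponent_le (by norm_num) hM)
    -- choice of L
    have hεinv : (2:ℝ) ^ L₀ ≤ 1 / ε := by
      rw [le_div_iff₀ hε0]
      have := mul_le_mul_of_nonneg_left hε (by positivity : (0:ℝ) ≤ 2 ^ L₀)
      rwa [mul_one_div, div_self (by positivity)] at this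
    have h1le : (1:ℝ) ≤ 1 / ε := le_trans (one_le_pow₀ (by norm_num)) hεinv
    obtain ⟨L, hL1, hL2⟩ := exists_nat_pow_near h1le (by norm_num : (1:ℝ) < 2)
    have hLL₀ : L₀ ≤ L := by
      by_contra hlt
      push Not at hlt
      have h3 : (2:ℝ) ^ (L + 1) ≤ 2 ^ L₀ := pow_le_pow_right₀ (by norm_num) hlt
      linarith
    have hLC : 8 * C ≤ L := hL₀'.trans (by exact_mod_cast hLL₀)
    have hL64 : (64:ℝ) ≤ L := by linarith
    have hε2 : ε ≤ 1 / 2 ^ L := by
      rw [le_div_iff₀ (by positivity), mul_comm]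
      rwa [le_div_iff₀ hε0] at hL1
    have hε1 : ε ≤ 1 := by
      rwa [le_div_iff₀ hε0, one_mul] at h1le
    -- the logarithm
    set x : ℝ := Real.log (1 / ε) with hx
    have hxexp : Real.exp (-x) = ε := by
      rw [hx, Real.exp_neg, Real.exp_log (by positivity), one_div, inv_inv]
    have hlog2 : (1:ℝ) / 2 ≤ Real.log 2 := by
      have := Real.log_two_gt_d9; linarith
    have hlog2' : Real.log 2 ≤ 1 := by
      have := Real.log_two_lt_d9; linarith
    have hx1 : (L:ℝ) / 2 ≤ x := by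
      have : Real.log (2 ^ L) ≤ x := Real.log_le_log (by positivity) hL1
      rw [Real.log_pow] at this
      have h4 : (L:ℝ) * (1 / 2) ≤ L * Real.log 2 := by gcongr
      linarith
    have hx2 : x ≤ 2 * L := by
      have : x ≤ Real.log (2 ^ (L + 1)) := Real.log_le_log (by positivity) hL2.le
      rw [Real.log_pow] at this
      have h4 : ((L + 1 : ℕ) : ℝ) * Real.log 2 ≤ ((L + 1 : ℕ) : ℝ) * 1 := by gcongr
      push_cast at this h4
      linarith
    have hx0 : 0 ≤ x := by linarith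
    -- a good seed
    obtain ⟨ω, hω⟩ := exists_seed hd0 B P T ε hB
    have hσ := sphLike_unif hd0
    have hn0 : 0 < n := (Nat.zero_le _).trans_lt (B.init ω).2
    by_cases hcase : (L:ℝ) ≤ (8 * A + 18) * d
    · -- main case
      set h : ℕ := d / 16 with hh
      have hh0 : 0 < h := by omega
      have hhd : 16 * h ≤ d := by omega
      have hdh : d ≤ 24 * h := by omega
      have hL3 : (L:ℝ) + 2 ≤ 2 ^ d := by
        have := hd₁ d hdd₁
        linarith
      set N : ℕ := T / (2 * h) + 1 with hN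
      have hTN : T ≤ N * (2 * h) := by
        have := Nat.lt_mul_div_succ T (by omega : 0 < 2 * h)
        rw [hN, mul_comm]
        exact this.le
      have hNT : (N : ℝ) ≤ T / (2 * h) + 1 := by
        rw [hN]
        push_cast
        have : ((T / (2 * h) : ℕ) : ℝ) ≤ (T:ℝ) / ((2 * h : ℕ) : ℝ) := Nat.cast_div_le
        push_cast at this
        linarith
      have hk1 := key1 (q := 2 * h) (L := L) (by omega) (by omega) hσ hn0 B hε2 ω hTN
        (B.init ω) hω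
      have hK0 : 0 ≤ Kc ((2 * h + 2) * n) (2 * h) d L :=
        le_trans zero_le_one (one_le_Kc (by positivity))
      have hfin := numeric1 hA hh0 hhd hdh hK0 (Kc_le hA hh0 hhd hdh hn0 hn' hL3) hLC hNT hk1
      have hdpos : (0:ℝ) < d := by exact_mod_cast hd0
      calc 1 / (192 * C) * d * x ≤ 1 / (192 * C) * d * (2 * L) := by gcongr
        _ = (d : ℝ) * L / (96 * C) := by field_simp; ring
        _ ≤ T := hfin
    · push Not at hcase
      have hk2 := key2 hd0 hσ B hε0 hε1 ω (B.init ω) hω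
      rw [← hxexp] at hk2
      have hxx : (4 * A + 8) * (d:ℝ) ≤ x := by
        have hdpos : (0:ℝ) < d := by exact_mod_cast hd0
        nlinarith
      have hfin := numeric2 hA (by omega) hn' hxx hk2
      have hdpos : (0:ℝ) < d := by exact_mod_cast hd0
      calc 1 / (192 * C) * d * x ≤ 1 / 2 * d * x := by
            gcongr
            linarith
        _ = (d:ℝ) * x / 2 := by ring
        _ ≤ T := hfin
  · intro d hd ε hε hε1 M hM
    obtain ⟨T, n, hT, hn, B, hB⟩ := upper hd hε hε1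
    refine ⟨T, n, hT, hn.trans ?_, B, hB⟩
    have hd' : (2 : ℝ) ≤ d := by exact_mod_cast hd
    have hx : 0 < 320 * (d : ℝ) ^ 2 / ε := by positivity
    calc (320 * (d : ℝ) ^ 2 / ε) ^ d
        = ((2 : ℝ) ^ (Real.logb 2 (320 * (d : ℝ) ^ 2 / ε))) ^ d := by
          rw [Real.rpow_logb (by norm_num) (by norm_num) hx]
      _ = (2 : ℝ) ^ (d * Real.logb 2 (320 * (d : ℝ) ^ 2 / ε)) := by
          rw [← Real.rpow_natCast, ← Real.rpow_mul (by norm_num), mul_comm]
      _ ≤ 2 ^ M := Real.rpow_le_rpow_of_exponent_le (by norm_num) hM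
  · intro d hd ε hε hε1 M T n hn Ω _ P _ B hB
    obtain ⟨ω, hω⟩ := exists_seed hd B P T ε hB
    have hk := key2 hd (sphLike_unif hd) B hε hε1 ω (B.init ω) hω
    have h1 : ((2 : ℝ) / 3) ≤ ((T : ℝ) + 1) * 2 ^ M * (2 ^ d * ε ^ (d - 1)) :=
      hk.trans (by gcongr)
    have h2 : (2 : ℝ) ^ (-(M + d)) * (2 ^ M * 2 ^ d) = 1 := by
      rw [← Real.rpow_natCast 2 d, ← Real.rpow_add (by norm_num),
        ← Real.rpow_add (by norm_num)]
      simp
    have h3 : (1 / ε) ^ (d - 1) * ε ^ (d - 1) = 1 := by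
      rw [← mul_pow, one_div, inv_mul_cancel₀ hε.ne', one_pow]
    have hpos : 0 ≤ (2 : ℝ) ^ (-(M + d)) * (1 / ε) ^ (d - 1) := by positivity
    calc 2 / 3 * (2 : ℝ) ^ (-(M + d)) * (1 / ε) ^ (d - 1)
        = 2 / 3 * ((2 : ℝ) ^ (-(M + d)) * (1 / ε) ^ (d - 1)) := by ring
      _ ≤ (((T : ℝ) + 1) * 2 ^ M * (2 ^ d * ε ^ (d - 1))) *
            ((2 : ℝ) ^ (-(M + d)) * (1 / ε) ^ (d - 1)) :=
          mul_le_mul_of_nonneg_right h1 hpos
      _ = ((T : ℝ) + 1) * ((2 : ℝ) ^ (-(M + d)) * (2 ^ M * 2 ^ d)) *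
            ((1 / ε) ^ (d - 1) * ε ^ (d - 1)) := by ring
      _ = T + 1 := by rw [h2, h3]; ring

end Vale.Agent.Results.P309.TwoSided
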